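import Vale.Agent.P171.Lim

open MeasureTheory Set Filter Topology

namespace Vale.Agent.Results.P171.PhaseTransition

/-- Euclidean space R^3. -/
abbrev R3 := EuclideanSpace ℝ (Fin 3)

/-- U_N(x_1, ..., x_N) = sum over i < j of phi(|x_i - x_j|). -/
noncomputable def energy (φ : ℝ → ℝ) {N : ℕ} (x : Fin N → R3) : ℝ :=
  ∑ i, ∑ j, if i < j then φ (dist (x i) (x j)) else 0

/-- phi is locally bounded on (0, infinity). -/
def LocallyBounded (φ : ℝ → ℝ) : Prop :=
  ∀ r > 0, ∃ δ > 0, ∃ M : ℝ, ∀ s > 0, |s - r| < δ → |φ s| ≤ M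

/-- Stability. -/
def Stable (φ : ℝ → ℝ) : Prop :=
  ∃ B : ℝ, ∀ (N : ℕ) (x : Fin N → R3), Function.Injective x → -B * N ≤ energy φ x

/-- Temperedness. -/
def Tempered (φ : ℝ → ℝ) : Prop :=
  ∃ C > 0, ∃ ε > 0, ∃ R₀ > 0, ∀ r : ℝ, R₀ ≤ r → φ r ≤ C * r ^ (-3 - ε : ℝ)

/-- The cube [0, L]^3. -/
def cube (L : ℝ) : Set R3 := {y | ∀ j, y j ∈ Icc 0 L}

/-- The canonical partition function Z_{L,N}(beta). -/
noncomputable def Z (φ : ℝ → ℝ) (β L : ℝ) (N : ℕ) : ℝ :=
  (N.factorial : ℝ)⁻¹ *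
    ∫ x in Set.pi univ (fun _ : Fin N => cube L), Real.exp (-β * energy φ x)

/-- L^{-3} log of the grand canonical partition function. -/
noncomputable def finitePressure (φ : ℝ → ℝ) (β z L : ℝ) : ℝ :=
  (L ^ 3)⁻¹ * Real.log (∑' N : ℕ, z ^ N * Z φ β L N)

open Vale.Agent.P171

lemma energy_eq (φ : ℝ → ℝ) {N : ℕ} (x : Fin N → R3) :
    ∑ i, ∑ j, φ (dist (x i) (x j)) = 2 * energy φ x + N * φ 0 := by
  have h1 : energy φ x = ∑ i, ∑ j, if j < i then φ (dist (x i) (x j)) else 0 := by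
    rw [energy, Finset.sum_comm]; simp only [dist_comm]
  have h2 : (N : ℝ) * φ 0 = ∑ i, ∑ j, if i = j then φ (dist (x i) (x j)) else 0 := by simp
  rw [two_mul, h2]
  nth_rewrite 2 [h1]
  simp only [energy, ← Finset.sum_add_distrib]
  refine Finset.sum_congr rfl fun i _ => Finset.sum_congr rfl fun j _ => ?_
  rcases lt_trichotomy i j with h | h | h
  · simp [h, h.ne, h.not_gt]
  · simp [h]
  · simp [h, h.ne', h.not_gt]

noncomputable def pot (K : ℝ) (a : ℕ → ℝ) (r : ℝ) : ℝ := K * (if r ≤ 2 then 1 else 0) - psr a r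

lemma D2_pot (K : ℝ) (a : ℕ → ℝ) {N : ℕ} (x : Fin N → R3) :
    D2 (w0 K a) (conf x) = -energy (pot K a) x - N * (K - psr a 0) / 2 := by
  have h := energy_eq (pot K a) x
  have e : D2 (w0 K a) (conf x) = -(1 / 2) * ∑ i, ∑ j, pot K a (dist (x i) (x j)) := by
    simp only [D2_conf, Finset.mul_sum]
    refine Finset.sum_congr rfl fun i _ => Finset.sum_congr rfl fun j _ => ?_
    simp only [w0, nr, psi, pot, Nat.cast_one, mul_one]; ring
  have e0 : pot K a 0 = K - psr a 0 := by simp [pot]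
  rw [e, h, e0]; ring

lemma link {K : ℝ} {a : ℕ → ℝ} (h : Ok K a) {z L : ℝ} (hz : 0 < z) (hL : 0 ≤ L) :
    (∀ N : ℕ, IntegrableOn (fun x : Fin N → R3 => Real.exp (-1 * energy (pot K a) x))
      (Set.pi univ fun _ => cube L)) ∧ (Summable fun N : ℕ => z ^ N * Z (pot K a) 1 L N) ∧
    ∑' N : ℕ, z ^ N * Z (pot K a) 1 L N = (Xi K a (Real.log z - psr a 0 / 2) L).toReal := by
  have hfin : Xi K a (Real.log z - psr a 0 / 2) L ≠ ⊤ :=
    ne_top_of_le_ne_top ENNReal.ofReal_ne_top (Xi_le h _ hL)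
  have hmu : ∀ N : ℕ, (volume : Measure (Fin N → R3)).restrict (Set.pi univ fun _ => cube L) =
      Measure.pi fun _ => mu L := fun N => by
    rw [volume_pi, Measure.restrict_pi_pi]; rfl
  have hme : ∀ N : ℕ, Measurable fun x : Fin N → R3 => Real.exp (-1 * energy (pot K a) x) := by
    intro N
    have : (fun x : Fin N → R3 => -1 * energy (pot K a) x) =
        fun x => D2 (w0 K a) (conf x) + N * (K - psr a 0) / 2 := by
      funext x; rw [D2_pot]; ring
    exact (this ▸ ((MW_w0 K h.toAd).D2 N).add_const _ :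
      Measurable fun x : Fin N → R3 => -1 * energy (pot K a) x).exp
  have hJ : ∀ N : ℕ, J N (mu L) (G (w0 K a) (Real.log z - psr a 0 / 2 + K / 2)) =
      ENNReal.ofReal (z ^ N) * ∫⁻ x : Fin N → R3,
        ENNReal.ofReal (Real.exp (-1 * energy (pot K a) x)) ∂(Measure.pi fun _ => mu L) := by
    intro N
    rw [← lintegral_const_mul _ (hme N).ennreal_ofReal, J]
    refine lintegral_congr fun x => ?_
    rw [G, D2_pot, card_conf, ← ENNReal.ofReal_mul (by positivity)]
    conv_rhs => rw [← Real.exp_log hz, ← Real.exp_nat_mul, ← Real.exp_add]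
    congr 2; ring
  have hterm : ∀ N : ℕ, ((N.factorial : ENNReal))⁻¹ *
      J N (mu L) (G (w0 K a) (Real.log z - psr a 0 / 2 + K / 2)) ≠ ⊤ := fun N =>
    ne_top_of_le_ne_top hfin (ENNReal.le_tsum (f := fun N => ((N.factorial : ENNReal))⁻¹ *
      J N (mu L) (G (w0 K a) (Real.log z - psr a 0 / 2 + K / 2))) N)
  have hZ : ∀ N : ℕ, z ^ N * Z (pot K a) 1 L N = (((N.factorial : ENNReal))⁻¹ *
      J N (mu L) (G (w0 K a) (Real.log z - psr a 0 / 2 + K / 2))).toReal := by
    intro N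
    rw [hJ, Z, hmu, integral_eq_lintegral_of_nonneg_ae (ae_of_all _ fun x => (Real.exp_pos _).le)
      (hme N).aestronglyMeasurable, ENNReal.toReal_mul, ENNReal.toReal_mul, ENNReal.toReal_inv,
      ENNReal.toReal_natCast, ENNReal.toReal_ofReal (by positivity)]
    ring
  refine ⟨fun N => ?_, ?_, ?_⟩
  · rw [IntegrableOn, hmu, ← lintegral_ofReal_ne_top_iff_integrable (hme N).aestronglyMeasurable
      (ae_of_all _ fun x => (Real.exp_pos _).le)]
    intro ht
    apply hterm N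
    rw [hJ, ht, ENNReal.mul_top (by simpa using pow_pos hz N), ENNReal.mul_top (by simp)]
  · simp only [hZ]; exact ENNReal.summable_toReal hfin
  · simp only [hZ]; exact (ENNReal.tsum_toReal_eq hterm).symm

theorem result : ∃ φ : ℝ → ℝ, Measurable φ ∧ LocallyBounded φ ∧ Stable φ ∧ Tempered φ ∧
    ∃ β > (0 : ℝ),
      (∀ L ≥ (0 : ℝ), ∀ N : ℕ, IntegrableOn (fun x : Fin N → R3 => Real.exp (-β * energy φ x))
        (Set.pi univ fun _ => cube L)) ∧
      (∀ z > (0 : ℝ), ∀ L ≥ (0 : ℝ), Summable fun N : ℕ => z ^ N * Z φ β L N) ∧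
      ∃ Pr : ℝ → ℝ, (∀ z > (0 : ℝ), Tendsto (finitePressure φ β z) atTop (𝓝 (Pr z))) ∧
        ∃ z > (0 : ℝ), ¬ DifferentiableAt ℝ Pr z := by
  obtain ⟨K, a, h, hd⟩ := kink
  refine ⟨pot K a, ?_, fun r _ => ⟨1, one_pos, K + ∑' k, a k, fun s _ _ => ?_⟩,
    ⟨K / 2, fun N x _ => ?_⟩, ⟨1, one_pos, 1, one_pos, 3, by norm_num, fun r hr => ?_⟩,
    1, one_pos, fun L hL => (link h one_pos hL).1, fun z hz L hL => (link h hz hL).2.1,
    fun z => P K a (Real.log z - psr a 0 / 2), fun z hz => ?_, ?_⟩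
  · exact ((Measurable.ite measurableSet_Iic measurable_const measurable_const).const_mul K).sub
      h.toAd.psr_meas
  · have h1 := h.toAd.psr_nonneg s
    have h2 := h.toAd.psr_le s
    have h3 := h.K_pos
    rw [abs_le, pot]
    split_ifs <;> constructor <;> linarith
  · have h1 := D2_pot K a x
    have h2 := h.stab (conf x)
    have h3 := V_nonneg (conf x)
    have h4 := mul_nonneg (Nat.cast_nonneg (α := ℝ) N) (h.toAd.psr_nonneg 0)
    linarith
  · have h1 := h.toAd.psr_nonneg r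
    have h2 : 0 ≤ r ^ (-3 - 1 : ℝ) := by positivity
    rw [pot, if_neg (by linarith)]
    linarith
  · refine (pr_tendsto h _).congr' ((eventually_ge_atTop 0).mono fun L hL => ?_)
    rw [finitePressure, (link h hz hL).2.2, pr]
  · by_contra hc
    push Not at hc
    refine hd fun μ => ?_
    have h1 := (hc _ (Real.exp_pos (μ + psr a 0 / 2))).comp μ
      (f := fun μ => Real.exp (μ + psr a 0 / 2)) (by fun_prop)
    simpa [Function.comp_def] using h1

end Vale.Agent.Results.P171.PhaseTransition
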